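import Vale.Agent.P127.G1.Cnt

/-! # P127 G1/Dc: the double count. -/

namespace Vale.Agent.P127

open Finset
open scoped Classical

variable {D : ℕ} {σ : ℝ} {m : ℕ} {d : Dat D} {N H K Lw : ℝ}

/-- the key -/
noncomputable def g1key (d : Dat D) (Lw : ℝ) (ω : ℕ × ℝ) : ℝ × (Fin D → ℤ) :=
  (ω.2, cell Lw (d.c.pos ω))

/-- cells of directions met by the key fibre -/
noncomputable def g1F (d : Dat D) (Lw β : ℝ) (E2 : Finset (ℕ × ℝ)) (ω : ℕ × ℝ) :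
    Finset (Fin D → ℤ) :=
  (E2.filter fun ω' => g1key d Lw ω' = g1key d Lw ω).image fun ω' => cell β (d.c.e ω'.1)

theorem g1_F (h : Reg σ m d N H K) (hN : 1 ≤ N) (hK : 0 < K) (h1 : 1 / N ≤ Lw) {β K1 : ℝ}
    (h2 : Lw ≤ β) (h3 : β ≤ 1) (hK1 : 0 < K1) {E2 : Finset (ℕ × ℝ)} (hE : E2 ⊆ d.c.E) {ω : ℕ × ℝ}
    (hf : d.c.nL * Lw ^ ((D : ℝ) - σ) / K1 ≤
      ((E2.filter fun ω' => g1key d Lw ω' = g1key d Lw ω).card : ℝ)) :
    1 / (K * K1 * β ^ σ) ≤ ((g1F d Lw β E2 ω).card : ℝ) := by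
  have hL : 0 < Lw := lt_of_lt_of_le (by positivity) h1
  have hβ : 0 < β := hL.trans_le h2
  have hnL := h.good.nL_pos
  have a1 := g1_fib (E2.filter fun ω' => g1key d Lw ω' = g1key d Lw ω)
    (fun ω' => cell β (d.c.e ω'.1)) (M := K * d.c.nL * Lw ^ ((D : ℝ) - σ) * β ^ σ) fun ω1 _ => by
      refine le_trans (Nat.cast_le.2 ?_) (h.r1 ω.2 β Lw (g1cor β (cell β (d.c.e ω1.1)))
        (g1cor Lw (cell Lw (d.c.pos ω))) h1 h2 h3)
      refine card_le_card_of_injOn (fun ω' => ω'.1) (fun ω' hω' => ?_) fun x hx y hy hxy => ?_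
      · obtain ⟨b1, b2⟩ := mem_filter.1 (mem_coe.1 hω')
        obtain ⟨b3, b4⟩ := mem_filter.1 b1
        have b5 : ω'.2 = ω.2 := congrArg Prod.fst b4
        have b6 : (ω'.1, ω.2) = ω' := by rw [← b5]
        refine mem_coe.2 (mem_filter.2 ⟨(mem_product.1 (h.good.sub (hE b3))).1, ?_, g1_cor hβ b2, ?_⟩)
        · rw [b6]
          exact hE b3
        · rw [b6]
          exact g1_cor hL (congrArg Prod.snd b4)
      · have b1 : x.2 = ω.2 :=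
          congrArg Prod.fst (mem_filter.1 (mem_filter.1 (mem_coe.1 hx)).1).2
        have b2 : y.2 = ω.2 :=
          congrArg Prod.fst (mem_filter.1 (mem_filter.1 (mem_coe.1 hy)).1).2
        exact Prod.ext hxy (b1.trans b2.symm)
  have a2 := hf.trans a1
  have hp : 0 < d.c.nL * Lw ^ ((D : ℝ) - σ) := by positivity
  rw [div_le_iff₀ hK1] at a2
  rw [div_le_iff₀ (by positivity)]
  refine le_of_mul_le_mul_left ?_ hp
  calc _ = d.c.nL * Lw ^ ((D : ℝ) - σ) := mul_one _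
    _ ≤ _ := a2
    _ = _ := by unfold g1F; ring

theorem g1_dc (D : ℕ) : ∃ C ≥ (1 : ℝ), ∀ {σ : ℝ} {m : ℕ} {d : Dat D} {N H K K1 Lw r0 β : ℝ}
    {E2 : Finset (ℕ × ℝ)}, Reg σ m d N H K → 1 ≤ N → 0 < K → 0 < K1 → 1 / N ≤ Lw → Lw ≤ r0 →
    r0 ≤ β → β ≤ 1 → E2 ⊆ d.c.E →
    (∀ ω ∈ E2, d.c.nL * Lw ^ ((D : ℝ) - σ) / K1 ≤
      ((E2.filter fun ω' => g1key d Lw ω' = g1key d Lw ω).card : ℝ)) →
    (∀ ω ∈ d.c.E, ∀ ω' ∈ d.c.E, g1key d Lw ω = g1key d Lw ω' → ‖d.s ω - d.s ω'‖ ≤ r0) →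
    ∀ ω0 : ℕ × ℝ, (((E2.filter fun ω => ω.2 = ω0.2 ∧ ‖d.c.pos ω - d.c.pos ω0‖ ≤ β).image
      fun ω => cell β (d.s ω)).card : ℝ) ≤ C * K ^ 2 * K1 := by
  obtain ⟨C, hC, hr⟩ := r2A D
  have hc : (0 : ℝ) ≤ D * 2 ^ D := by positivity
  refine ⟨C * 2 ^ (2 * D + 1) * (2 * (1 + D * 2 ^ D) + 2) ^ D,
    one_le_mul_of_one_le_of_one_le (one_le_mul_of_one_le_of_one_le hC (one_le_pow₀ one_le_two))
      (one_le_pow₀ (by linarith)),
    fun {σ m d N H K K1 Lw r0 β E2} h hN hK hK1 h1 h2 h3 h4 hE hf hs ω0 => ?_⟩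
  have hL : 0 < Lw := lt_of_lt_of_le (by positivity) h1
  have h5 : Lw ≤ β := h2.trans h3
  have hβ : 0 < β := hL.trans_le h5
  set T := E2.filter fun ω => ω.2 = ω0.2 ∧ ‖d.c.pos ω - d.c.pos ω0‖ ≤ β with hT
  have hB := hr h hN 2 ω0.2 1 β 0 (d.c.pos ω0) one_le_two (h1.trans h5) h4 le_rfl
  set B := (d.c.E.filter fun ω => |ω.2 - ω0.2| ≤ 2 * β ∧ ‖d.c.pos ω - d.c.pos ω0‖ ≤ 2 * β ∧
    ‖d.c.e ω.1 - 0‖ ≤ 2 * 1).image fun ω => cell β (d.c.e ω.1) with hBd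
  have key := card_nsmul_le_card_nsmul (s := T.image fun ω => cell β (d.s ω)) (t := B)
    (fun γ t => ∃ ω ∈ T, cell β (d.s ω) = γ ∧ t ∈ g1F d Lw β E2 ω)
    (m := 1 / (K * K1 * β ^ σ)) (n := (2 * (1 + D * 2 ^ D) + 2 : ℝ) ^ D)
    (fun γ hγ => by
      obtain ⟨ω, hω, rfl⟩ := mem_image.1 hγ
      obtain ⟨b1, b2, b3⟩ := mem_filter.1 hω
      refine (g1_F h hN hK h1 h5 h4 hK1 hE (hf ω b1)).trans (Nat.cast_le.2 (card_le_card ?_))
      intro t ht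
      refine mem_filter.2 ⟨?_, ω, hω, rfl, ht⟩
      obtain ⟨ω', hω', rfl⟩ := mem_image.1 ht
      obtain ⟨b4, b5⟩ := mem_filter.1 hω'
      have b6 : ω'.2 = ω.2 := congrArg Prod.fst b5
      have b7 := cell_close hL (congrArg Prod.snd b5)
      refine mem_image_of_mem _ (mem_filter.2 ⟨hE b4, ?_, ?_, ?_⟩)
      · rw [b6, b2, sub_self, abs_zero]
        positivity
      · linarith [norm_sub_le_norm_sub_add_norm_sub (d.c.pos ω') (d.c.pos ω) (d.c.pos ω0)]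
      · rw [sub_zero]
        linarith [g1_be h (hE b4)])
    (fun t _ => by
      have b0 := cover (T.filter fun ω => t ∈ g1F d Lw β E2 ω) (fun ω => d.s ω)
        (mv (d.P ω0.2) (g1cor β t)) hβ (ρ := (1 + D * 2 ^ D) * β) (by positivity) fun ω hω => by
          obtain ⟨b1, b2⟩ := mem_filter.1 hω
          obtain ⟨b3, b4, -⟩ := mem_filter.1 b1
          obtain ⟨ω', hω', b5⟩ := mem_image.1 b2
          obtain ⟨b6, b7⟩ := mem_filter.1 hω'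
          have b8 : ω'.2 = ω0.2 := (congrArg Prod.fst b7).trans b4
          have b9 := hs ω (hE b3) ω' (hE b6) b7.symm
          have b10 := g1_mv h ω0.2 (g1_cor hβ b5)
          rw [mv_sub, ← b8] at b10
          rw [← b8]
          have b11 := norm_sub_le_norm_sub_add_norm_sub (d.s ω) (d.s ω')
            (mv (d.P ω'.2) (g1cor β t))
          have b12 : ‖d.s ω' - mv (d.P ω'.2) (g1cor β t)‖ ≤ D * 2 ^ D * β := b10
          linarith
      rw [show 2 * ((1 + D * 2 ^ D) * β) / β + 2 = 2 * (1 + D * 2 ^ D) + 2 by field_simp,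
        Fintype.card_fin] at b0
      refine le_trans (Nat.cast_le.2 (card_le_card fun γ hγ => ?_)) b0
      obtain ⟨-, ω, hω, rfl, b1⟩ := mem_filter.1 hγ
      exact mem_image_of_mem _ (mem_filter.2 ⟨hω, b1⟩))
  rw [nsmul_eq_mul, nsmul_eq_mul, mul_one_div, div_le_iff₀ (by positivity)] at key
  refine key.trans ((mul_le_mul_of_nonneg_right (mul_le_mul_of_nonneg_right hB (by positivity))
    (by positivity)).trans (le_of_eq ?_))
  have e : (1 / β) ^ σ * β ^ σ = 1 := by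
    rw [← Real.mul_rpow (by positivity) hβ.le, one_div_mul_cancel hβ.ne', Real.one_rpow]
  calc _ = C * 2 ^ (2 * D + 1) * (2 * (1 + D * 2 ^ D) + 2) ^ D * K ^ 2 * K1 *
        ((1 / β) ^ σ * β ^ σ) := by ring
    _ = _ := by rw [e, mul_one]

end Vale.Agent.P127
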