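import Vale.Agent.P127.G1.Cnt
import Vale.Agent.P127.Flat

/-! # P127 G1/Fl: the instance of flat. -/

namespace Vale.Agent.P127

open Finset
open scoped Classical

variable {D : ℕ} {σ : ℝ} {m : ℕ} {d : Dat D} {N H K Lw : ℝ}

/-- points in one small cell have close projected directions -/
def G1A (σ : ℝ) (m : ℕ) (d : Dat D) (N K : ℝ) : Prop :=
  Reg σ m d N N K ∧ ∀ ω ∈ d.c.E, ∀ ω' ∈ d.c.E,
    (ω.2, cell (N ^ (-(1 / 2) : ℝ)) (d.c.pos ω)) = (ω'.2, cell (N ^ (-(1 / 2) : ℝ)) (d.c.pos ω')) →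
      ‖d.s ω - d.s ω'‖ ≤ N ^ (-(2 / 5) : ℝ)

theorem g1_rel (h : Reg σ m d N H K) (hN : 0 < N) (hL : 0 < Lw) (hq : Lw * Lw = 1 / N)
    {i i' : ℕ} {z0 z1 : ℝ} (h1 : cell (1 / N) (d.c.pos (i, z1)) = cell (1 / N) (d.c.pos (i', z1)))
    (h2 : cz Lw z0 = cz Lw z1) :
    ‖d.u (i, z0) - d.u (i', z0) - (z1 - z0) ^ 1 •
      (-mv (d.P z0) (g1cor Lw (cell Lw (d.c.e i))) -
        -mv (d.P z0) (g1cor Lw (cell Lw (d.c.e i'))))‖ ≤ (3 * (D * 2 ^ D) + 1) / N := by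
  have e : d.u (i, z0) - d.u (i', z0) - (z1 - z0) ^ 1 •
      (-mv (d.P z0) (g1cor Lw (cell Lw (d.c.e i))) - -mv (d.P z0) (g1cor Lw (cell Lw (d.c.e i')))) =
      mv (d.P z0) ((d.c.pos (i, z1) - d.c.pos (i', z1)) - (z1 - z0) •
        ((d.c.e i - g1cor Lw (cell Lw (d.c.e i))) - (d.c.e i' - g1cor Lw (cell Lw (d.c.e i'))))) := by
    rw [pos_shift d.c i z0 z1, pos_shift d.c i' z0 z1]
    simp only [Dat.u, mv_sub, mv_add, mv_smul, pow_one]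
    module
  have a1 := cell_close (by positivity : 0 < 1 / N) h1
  have a2 := (norm_sub_le _ _).trans
    (add_le_add (g1_cor hL (v := d.c.e i) rfl) (g1_cor hL (v := d.c.e i') rfl))
  have a3 : ‖(z1 - z0) • ((d.c.e i - g1cor Lw (cell Lw (d.c.e i))) -
      (d.c.e i' - g1cor Lw (cell Lw (d.c.e i'))))‖ ≤ Lw * (Lw + Lw) := by
    rw [norm_smul, Real.norm_eq_abs, abs_sub_comm]
    exact mul_le_mul (cz_close hL h2) a2 (norm_nonneg _) hL.le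
  rw [e]
  refine (g1_mv h z0 ((norm_sub_le _ _).trans (add_le_add a1 a3))).trans ?_
  rw [mul_add Lw, hq, add_div]
  have : 0 < 1 / N := by positivity
  have e2 : D * 2 ^ D * (1 / N + (1 / N + 1 / N)) = 3 * (D * 2 ^ D) / N := by ring
  linarith

theorem g1_prod {N K H nL Lw C1 C2 a σ : ℝ} (hN : 0 < N) (hL : 0 < Lw) :
    K * H * (C1 * K * (1 / Lw) ^ a) * (C2 * K * (Lw / (1 / N)) ^ a) * (K * (1 / Lw) ^ σ) *
      (K * nL * (1 / N) ^ a * Lw ^ σ) = C1 * C2 * K ^ 5 * nL * H := by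
  have h1 : (1 / Lw) ^ a * (Lw / (1 / N)) ^ a * (1 / N) ^ a = 1 := by
    rw [← Real.mul_rpow (by positivity) (by positivity),
      ← Real.mul_rpow (by positivity) (by positivity),
      show 1 / Lw * (Lw / (1 / N)) * (1 / N) = 1 by field_simp, Real.one_rpow]
  have h2 : (1 / Lw) ^ σ * Lw ^ σ = 1 := by
    rw [← Real.mul_rpow (by positivity) (by positivity), show 1 / Lw * Lw = 1 by field_simp,
      Real.one_rpow]
  calc _ = C1 * C2 * K ^ 5 * nL * H * ((1 / Lw) ^ a * (Lw / (1 / N)) ^ a * (1 / N) ^ a) *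
        ((1 / Lw) ^ σ * Lw ^ σ) := by ring
    _ = _ := by rw [h1, h2, mul_one, mul_one]

theorem g1_num {N c : ℝ} (hN : 1 ≤ N) (hc : 0 ≤ c) (h : 8 * c + 2 ≤ N ^ (1 / 20 : ℝ)) :
    2 * ((3 * c + 1) / N) * N ^ (1 / 20 : ℝ) / (N ^ (-(1 / 2) : ℝ)) ^ 1 +
      c * (N ^ (-(1 / 2) : ℝ) + N ^ (-(1 / 2) : ℝ)) ≤ N ^ (-(2 / 5) : ℝ) := by
  have h0 : 0 < N := by linarith
  have h1 : 2 * ((3 * c + 1) / N) * N ^ (1 / 20 : ℝ) / (N ^ (-(1 / 2) : ℝ)) ^ 1 =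
      (6 * c + 2) * N ^ (-(9 / 20) : ℝ) := by
    rw [show (-(9 / 20) : ℝ) = 1 / 20 - 1 - -(1 / 2) by norm_num, Real.rpow_sub h0,
      Real.rpow_sub h0, Real.rpow_one]
    ring
  have h2 : N ^ (-(1 / 2) : ℝ) ≤ N ^ (-(9 / 20) : ℝ) :=
    Real.rpow_le_rpow_of_exponent_le hN (by norm_num)
  have h3 : N ^ (-(2 / 5) : ℝ) = N ^ (1 / 20 : ℝ) * N ^ (-(9 / 20) : ℝ) := by
    rw [← Real.rpow_add h0]
    norm_num
  have h4 := mul_le_mul_of_nonneg_right h (Real.rpow_pos_of_pos h0 (-(9 / 20) : ℝ)).le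
  rw [h1, h3]
  nlinarith [mul_le_mul_of_nonneg_left h2 hc]

theorem g1_fl (hm : 1 ≤ m) (hNI : ¬ Inh (D := D) (CK σ (m - 1))) :
    Step (D := D) (S0 σ m) (G1A σ m) := by
  intro ε' hε'
  obtain ⟨εf, hεf, N1, hf⟩ := flat hm hNI (ε2 := 1 / 20) (by norm_num) ε' hε'
  obtain ⟨C1, hC1, hK⟩ := g1_nK D
  obtain ⟨C2, hC2, h1⟩ := g1_n1 D
  obtain ⟨ε0, hε0, N2, hs⟩ := small (C1 * C2) 5 hεf
  obtain ⟨N3, hb⟩ := big (6 ^ D * 4 ^ D + D * 2 ^ D * 2) hεf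
  obtain ⟨N4, hb'⟩ := big (8 * (D * 2 ^ D) + 2) (ε := 1 / 20) (by norm_num)
  refine ⟨min ε0 (min εf ε'), lt_min hε0 (lt_min hεf hε'), max (max N1 N2) (max N3 N4),
    fun N hN d hd => ?_⟩
  simp only [ge_iff_le, max_le_iff] at hN
  obtain ⟨hN2, hs'⟩ := hs _ (lt_min hε0 (lt_min hεf hε')) (min_le_left _ _) N hN.1.2
  set K := N ^ min ε0 (min εf ε') with hKdef
  have hN1 : 1 ≤ N := by linarith
  have hN0 : 0 < N := by linarith
  have hK0 : 0 < K := Real.rpow_pos_of_pos hN0 _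
  have hKf : K ≤ N ^ εf :=
    Real.rpow_le_rpow_of_exponent_le hN1 ((min_le_right _ _).trans (min_le_left _ _))
  have hK' : K ≤ N ^ ε' :=
    Real.rpow_le_rpow_of_exponent_le hN1 ((min_le_right _ _).trans (min_le_right _ _))
  set Lw := N ^ (-(1 / 2) : ℝ) with hLw
  have hL : 0 < Lw := Real.rpow_pos_of_pos hN0 _
  have hL1 : Lw ≤ 1 := Real.rpow_le_one_of_one_le_of_nonpos hN1 (by norm_num)
  have hq : Lw * Lw = 1 / N := by
    rw [hLw, ← Real.rpow_add hN0, one_div N, ← Real.rpow_neg_one]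
    norm_num
  have hL2 : 1 / N ≤ Lw := hq ▸ mul_le_of_le_one_left hL.le hL1
  have hR : Reg σ m d N N K := hd
  have hnL := hR.good.nL_pos
  have hc : (0 : ℝ) ≤ D * 2 ^ D := by positivity
  have hc2 : (0 : ℝ) ≤ 6 ^ D * 4 ^ D := by positivity
  obtain ⟨E', hE, hm', hw⟩ := hf N hN.1.1 d N (N ^ εf) Lw ((3 * (D * 2 ^ D) + 1) / N)
    (K * N * (C1 * K * (1 / Lw) ^ ((D : ℝ) - σ))) (C2 * K * (Lw / (1 / N)) ^ ((D : ℝ) - σ))
    (K * (1 / Lw) ^ σ) (K * d.c.nL * (1 / N) ^ ((D : ℝ) - σ) * Lw ^ σ) 1 _ _ _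
    (fun ω => (ω.2, cell Lw (d.c.pos ω))) (fun ω => cell Lw (d.c.e ω.1))
    (fun k t => -mv (d.P k.1) (g1cor Lw t)) (fun ω => cell (1 / N) (d.c.pos ω)) rfl
    (hR.mono hN0 hN0 hK0 hKf) (Or.inl rfl) hL hL1
    (by
      rw [hLw, ← Real.rpow_one_add' hN0.le (by norm_num)]
      exact Real.rpow_le_rpow_of_exponent_le hN1 (by norm_num))
    (div_le_div_of_nonneg_right (by linarith) hN0.le) (by positivity) (by positivity)
    (by positivity) (by positivity) (fun ω _ ω' _ h => congrArg Prod.fst h)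
    (fun k t i hi => by simp [mv, (hR.gr k.1).1 i hi])
    (fun ω hω => by
      rw [norm_neg]
      have a1 := g1_cor hL (v := d.c.e ω.1) rfl
      have a2 := norm_sub_le (d.c.e ω.1) (d.c.e ω.1 - g1cor Lw (cell Lw (d.c.e ω.1)))
      rw [sub_sub_cancel] at a2
      refine (g1_mv hR ω.2 (b := 2) (by linarith [g1_be hR hω])).trans ?_
      linarith [(hb N hN.2.1).2.1])
    (by simpa only [image_cd, filter_cd] using hK hR hN1 hN1 hK0.le hL2 hL1)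
    (fun k0 z1 => by simpa only [image_cd, filter_cd] using h1 hR hN1 hL2 hL1 k0 z1)
    (fun k0 => by simpa only [image_cd, filter_cd] using g1_nT hR hN1 hL2 hL1 k0)
    (fun k0 t z1 γ => by
      simpa only [image_cd, filter_cd] using g1_m1 hR hN1 hL2 hL1 k0 t z1 γ)
    (by
      rw [g1_prod hN0 hL]
      exact mul_le_mul_of_nonneg_right (mul_le_mul_of_nonneg_right hs' hnL.le) hN0.le)
    (fun i i' z0 z1 _ _ _ _ _ a1 a2 => g1_rel hR hN0 hL hq a1 a2)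
    (fun z p q => by
      have a1 : (6 : ℝ) ^ D * 4 ^ D ≤ N ^ εf := by linarith [(hb N hN.2.1).2.1]
      have a2 := g1_box d hL z p q
      refine le_trans (le_of_eq ?_) (le_trans a2 a1)
      simp only [image_cd, filter_cd])
  refine ⟨d.res E', hR.res hN0 hN0 hK0 hK' hE hm', fun ω hω ω' hω' hk => ?_⟩
  have a1 := hw ω hω ω' hω' hk
  have a2 : ω.2 = ω'.2 := congrArg Prod.fst hk
  have e : d.s ω - d.s ω' = -(-mv (d.P ω.2) (g1cor Lw (cell Lw (d.c.e ω.1))) -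
      -mv (d.P ω'.2) (g1cor Lw (cell Lw (d.c.e ω'.1)))) +
      mv (d.P ω.2) ((d.c.e ω.1 - g1cor Lw (cell Lw (d.c.e ω.1))) -
        (d.c.e ω'.1 - g1cor Lw (cell Lw (d.c.e ω'.1)))) := by
    simp only [Dat.s, mv_sub, ← a2]
    abel
  have a3 := g1_mv hR ω.2 ((norm_sub_le _ _).trans
    (add_le_add (g1_cor hL (v := d.c.e ω.1) rfl) (g1_cor hL (v := d.c.e ω'.1) rfl)))
  show ‖d.s ω - d.s ω'‖ ≤ _
  rw [e]
  refine (norm_add_le _ _).trans (le_trans (add_le_add ?_ a3) (g1_num hN1 hc (hb' N hN.2.2).2.1))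
  rw [norm_neg]
  exact a1

end Vale.Agent.P127
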