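import Vale.Agent.P127.Dec
import Vale.Agent.P127.Api2

/-! # P127 G1/Cnt: the counts for key = (height, cell of the position), type = cell of the direction. -/

namespace Vale.Agent.P127

open Finset
open scoped Classical

variable {D : ℕ} {σ : ℝ} {m : ℕ} {d : Dat D} {N H K Lw : ℝ}

/-- corner of a cell -/
noncomputable def g1cor (r : ℝ) (t : Fin D → ℤ) : V D := fun j => r * (t j : ℝ)

theorem g1_cor {r : ℝ} (hr : 0 < r) {v : V D} {t : Fin D → ℤ} (h : cell r v = t) :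
    ‖v - g1cor r t‖ ≤ r := h ▸ cell_corner hr v

theorem g1_be (h : Reg σ m d N H K) {ω : ℕ × ℝ} (hω : ω ∈ d.c.E) : ‖d.c.e ω.1‖ ≤ 1 :=
  h.good.be _ (mem_product.1 (h.good.sub hω)).1

theorem g1_mul {Ω β γ : Type} [DecidableEq β] [DecidableEq γ] (E : Finset Ω) (f : Ω → β)
    (g : Ω → γ) {M : ℝ} (h : ∀ ω ∈ E, (((E.filter fun ω' => f ω' = f ω).image g).card : ℝ) ≤ M) :
    ((E.image g).card : ℝ) ≤ (E.image f).card * M := by
  simpa only [image_cd, filter_cd] using image_le_mul E f g (M := M) fun ω hω => by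
    simpa only [image_cd, filter_cd] using h ω hω

theorem g1_fib {Ω β : Type} [DecidableEq β] (E : Finset Ω) (f : Ω → β) {M : ℝ}
    (h : ∀ ω ∈ E, ((E.filter fun ω' => f ω' = f ω).card : ℝ) ≤ M) :
    (E.card : ℝ) ≤ (E.image f).card * M := by
  simpa only [image_cd, filter_cd] using card_le_fib E f (M := M) fun ω hω => by
    simpa only [image_cd, filter_cd] using h ω hω

theorem g1_pop {Ω β : Type} [DecidableEq β] (E : Finset Ω) (f : Ω → β) {R : ℝ}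
    (hR : ((E.image f).card : ℝ) ≤ R) : ∃ E' ⊆ E, (E.card : ℝ) / 2 ≤ E'.card ∧ ∀ ω ∈ E',
      (E.card : ℝ) / (2 * R) ≤ ((E'.filter fun ω' => f ω' = f ω).card : ℝ) := by
  simpa only [image_cd, filter_cd] using pop1 E f (R := R)
    (by simpa only [image_cd, filter_cd] using hR)

theorem g1_nK (D : ℕ) : ∃ C ≥ (1 : ℝ), ∀ {σ : ℝ} {m : ℕ} {d : Dat D} {N H K Lw : ℝ},
    Reg σ m d N H K → 1 ≤ N → 1 ≤ H → 0 ≤ K → 1 / N ≤ Lw → Lw ≤ 1 →
    ((d.c.E.image fun ω => (ω.2, cell Lw (d.c.pos ω))).card : ℝ) ≤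
      K * H * (C * K * (1 / Lw) ^ ((D : ℝ) - σ)) := by
  obtain ⟨C, hC, hp⟩ := rpA D
  refine ⟨C * 2 ^ (2 * D), one_le_mul_of_one_le_of_one_le hC (one_le_pow₀ one_le_two),
    fun {σ m d N H K Lw} h hN hH hK h1 h2 => ?_⟩
  have hL : 0 < Lw := lt_of_lt_of_le (by positivity) h1
  refine (g1_mul d.c.E (fun ω => ω.2) _
    (M := C * 2 ^ (2 * D) * K * (1 / Lw) ^ ((D : ℝ) - σ)) fun ω hω => ?_).trans ?_
  · refine le_trans (Nat.cast_le.2 ?_) (hp h hN 2 ω.2 1 Lw 0 one_le_two h1 h2 le_rfl)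
    refine le_trans (card_le_card fun y hy => ?_) (card_image_le (f := fun t => (ω.2, t)))
    obtain ⟨ω', h3, rfl⟩ := mem_image.1 hy
    obtain ⟨h4, h5⟩ := mem_filter.1 h3
    refine mem_image.2 ⟨_, mem_image_of_mem _ (mem_filter.2 ⟨h4, h5, ?_⟩), by rw [h5]⟩
    simpa using h.good.toPre.norm_pos h4
  · refine mul_le_mul_of_nonneg_right (le_trans (Nat.cast_le.2 (card_le_card fun z hz => ?_))
      (h.good.toPre.cardZ hH)) (by positivity)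
    obtain ⟨ω, hω, rfl⟩ := mem_image.1 hz
    exact (mem_product.1 (h.good.sub hω)).2

theorem g1_n1 (D : ℕ) : ∃ C ≥ (1 : ℝ), ∀ {σ : ℝ} {m : ℕ} {d : Dat D} {N H K Lw : ℝ},
    Reg σ m d N H K → 1 ≤ N → 1 / N ≤ Lw → Lw ≤ 1 → ∀ (k0 : ℝ × (Fin D → ℤ)) (z1 : ℝ),
    (((d.c.L.filter fun i => (i, z1) ∈ d.c.E ∧ ∃ z0, (i, z0) ∈ d.c.E ∧
      (z0, cell Lw (d.c.pos (i, z0))) = k0 ∧ cz Lw z0 = cz Lw z1).image
        fun i => cell (1 / N) (d.c.pos (i, z1))).card : ℝ) ≤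
      C * K * (Lw / (1 / N)) ^ ((D : ℝ) - σ) := by
  obtain ⟨C, hC, hp⟩ := rpA D
  refine ⟨C * 2 ^ (2 * D), one_le_mul_of_one_le_of_one_le hC (one_le_pow₀ one_le_two),
    fun {σ m d N H K Lw} h hN h1 h2 k0 z1 => ?_⟩
  have hL : 0 < Lw := lt_of_lt_of_le (by positivity) h1
  refine le_trans (Nat.cast_le.2 (card_le_card fun y hy => ?_))
    (hp h hN 2 z1 Lw (1 / N) (g1cor Lw k0.2) one_le_two le_rfl h1 h2)
  obtain ⟨i, hi, rfl⟩ := mem_image.1 hy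
  obtain ⟨-, h3, z0, h4, h5, h6⟩ := mem_filter.1 hi
  refine mem_image.2 ⟨(i, z1), mem_filter.2 ⟨h3, rfl, ?_⟩, rfl⟩
  have h7 := g1_cor hL (congrArg Prod.snd h5)
  have h8 : ‖(z1 - z0) • d.c.e i‖ ≤ Lw := by
    rw [norm_smul, Real.norm_eq_abs, abs_sub_comm]
    exact (mul_le_mul (cz_close hL h6) (g1_be h h4) (norm_nonneg _) hL.le).trans (mul_one _).le
  rw [pos_shift d.c i z0 z1, add_sub_right_comm]
  linarith [norm_add_le (d.c.pos (i, z0) - g1cor Lw k0.2) ((z1 - z0) • d.c.e i)]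

theorem g1_nT (h : Reg σ m d N H K) (hN : 1 ≤ N) (h1 : 1 / N ≤ Lw) (h2 : Lw ≤ 1)
    (k0 : ℝ × (Fin D → ℤ)) :
    (((d.c.E.filter fun ω => (ω.2, cell Lw (d.c.pos ω)) = k0).image
      fun ω => cell Lw (d.c.e ω.1)).card : ℝ) ≤ K * (1 / Lw) ^ σ := by
  have hL : 0 < Lw := lt_of_lt_of_le (by positivity) h1
  refine le_trans (Nat.cast_le.2 (card_le_card (image_subset_image fun ω hω => ?_)))
    (h.r2 k0.1 1 Lw 0 (g1cor Lw k0.2) h1 h2 le_rfl)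
  obtain ⟨h3, h4⟩ := mem_filter.1 hω
  refine mem_filter.2 ⟨h3, ?_, g1_cor hL (congrArg Prod.snd h4), by simpa using g1_be h h3⟩
  rw [← h4, sub_self, abs_zero]
  exact hL.le

theorem g1_m1 (h : Reg σ m d N H K) (hN : 1 ≤ N) (h1 : 1 / N ≤ Lw) (h2 : Lw ≤ 1)
    (k0 : ℝ × (Fin D → ℤ)) (t : Fin D → ℤ) (z1 : ℝ) (γ : Fin D → ℤ) :
    ((d.c.L.filter fun i => (i, z1) ∈ d.c.E ∧ cell (1 / N) (d.c.pos (i, z1)) = γ ∧ ∃ z0,
      (i, z0) ∈ d.c.E ∧ (z0, cell Lw (d.c.pos (i, z0))) = k0 ∧ cell Lw (d.c.e i) = t ∧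
        cz Lw z0 = cz Lw z1).card : ℝ) ≤ K * d.c.nL * (1 / N) ^ ((D : ℝ) - σ) * Lw ^ σ := by
  have hL : 0 < Lw := lt_of_lt_of_le (by positivity) h1
  refine le_trans (Nat.cast_le.2 (card_le_card (monotone_filter_right _ fun i _ hi => ?_)))
    (h.r1 z1 Lw (1 / N) (g1cor Lw t) (g1cor (1 / N) γ) le_rfl h1 h2)
  obtain ⟨h3, h4, z0, -, -, h5, -⟩ := hi
  exact ⟨h3, g1_cor hL h5, g1_cor (by positivity) h4⟩

theorem g1_box (d : Dat D) (hL : 0 < Lw) (z : ℝ) (p q : V D) :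
    (((d.c.E.filter fun ω => ω.2 = z ∧ ‖d.c.e ω.1 - p‖ ≤ Lw ∧ ‖d.c.pos ω - q‖ ≤ 2 * Lw).image
      fun ω => ((ω.2, cell Lw (d.c.pos ω)), cell Lw (d.c.e ω.1))).card : ℝ) ≤ 6 ^ D * 4 ^ D := by
  set F := d.c.E.filter fun ω => ω.2 = z ∧ ‖d.c.e ω.1 - p‖ ≤ Lw ∧ ‖d.c.pos ω - q‖ ≤ 2 * Lw
  have h1 := cover F (fun ω => d.c.pos ω) q hL (by positivity) fun ω hω => (mem_filter.1 hω).2.2.2
  have h2 := cover F (fun ω => d.c.e ω.1) p hL hL.le fun ω hω => (mem_filter.1 hω).2.2.1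
  rw [show 2 * (2 * Lw) / Lw + 2 = 6 by field_simp; norm_num, Fintype.card_fin] at h1
  rw [show 2 * Lw / Lw + 2 = 4 by field_simp; norm_num, Fintype.card_fin] at h2
  refine le_trans ?_ (mul_le_mul h1 h2 (Nat.cast_nonneg _) (by positivity))
  rw [← Nat.cast_mul, ← card_product, Nat.cast_le]
  refine le_trans (card_le_card fun y hy => ?_)
    (card_image_le (f := fun t : (Fin D → ℤ) × (Fin D → ℤ) => ((z, t.1), t.2)))
  obtain ⟨ω, hω, rfl⟩ := mem_image.1 hy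
  exact mem_image.2 ⟨(_, _), mem_product.2 ⟨mem_image_of_mem _ hω, mem_image_of_mem _ hω⟩,
    by rw [(mem_filter.1 hω).2.1]; rfl⟩

theorem g1_mv (h : Reg σ m d N H K) (z : ℝ) {v : V D} {b : ℝ} (hb : ‖v‖ ≤ b) :
    ‖mv (d.P z) v‖ ≤ D * 2 ^ D * b :=
  (norm_mv _ _).trans (mul_le_mul (mul_le_mul_of_nonneg_left (h.gr.norm_le z) (by positivity)) hb
    (norm_nonneg _) (by positivity))

end Vale.Agent.P127
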